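import Mathlib

/-!
# P371 (general exponent): Gibbs / Golden-Thompson inequality

For positive definite `a`, `b` and positive semidefinite `Y`:
`tr [Y (log a + log b) - Y log Y + Y] ≤ tr (a b)`.
-/

open Matrix Filter Topology
open scoped ComplexOrder ComplexConjugate

namespace Vale.Agent.P371.FE

variable {N : ℕ}

/-- `∑ d_k |Z_kl|² = tr (Z^* d Z)` -/
theorem sum_row_weight (Z : Matrix (Fin N) (Fin N) ℂ) (d : Fin N → ℝ) :
    ∑ k, ∑ l, d k * ‖Z k l‖ ^ 2 =
      ((star Z * diagonal (fun i => (d i : ℂ)) * Z).trace).re := by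
  rw [Finset.sum_comm, trace, Complex.re_sum]
  refine Finset.sum_congr rfl fun l _ => ?_
  rw [diag_apply, Matrix.mul_apply, Complex.re_sum]
  refine Finset.sum_congr rfl fun k _ => ?_
  rw [mul_diagonal, star_apply]
  have : star (Z k l) * (d k : ℂ) * Z k l = ((d k * ‖Z k l‖ ^ 2 : ℝ) : ℂ) := by
    rw [Complex.ofReal_mul, ← Complex.normSq_eq_norm_sq, Complex.normSq_eq_conj_mul_self]
    simp only [RCLike.star_def]
    ring
  rw [this, Complex.ofReal_re]

/-- `∑ e_l |Z_kl|² = tr (Z e Z^*)` -/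
theorem sum_col_weight (Z : Matrix (Fin N) (Fin N) ℂ) (e : Fin N → ℝ) :
    ∑ k, ∑ l, e l * ‖Z k l‖ ^ 2 =
      ((Z * diagonal (fun i => (e i : ℂ)) * star Z).trace).re := by
  rw [trace, Complex.re_sum]
  refine Finset.sum_congr rfl fun k _ => ?_
  rw [diag_apply, Matrix.mul_apply, Complex.re_sum]
  refine Finset.sum_congr rfl fun l _ => ?_
  rw [mul_diagonal, star_apply]
  have : Z k l * (e l : ℂ) * star (Z k l) = ((e l * ‖Z k l‖ ^ 2 : ℝ) : ℂ) := by
    rw [Complex.ofReal_mul, ← Complex.normSq_eq_norm_sq, Complex.normSq_eq_conj_mul_self]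
    simp only [RCLike.star_def]
    ring
  rw [this, Complex.ofReal_re]

theorem sum_inner (Z P : Matrix (Fin N) (Fin N) ℂ) :
    ∑ k, ∑ l, (star (Z k l) * P k l).re = ((star Z * P).trace).re := by
  rw [Finset.sum_comm, trace, Complex.re_sum]
  refine Finset.sum_congr rfl fun l _ => ?_
  rw [diag_apply, Matrix.mul_apply, Complex.re_sum]
  refine Finset.sum_congr rfl fun k _ => ?_
  rw [star_apply]

theorem scalar_quad (α y s : ℝ) (hα : 0 < α) (hy : 0 ≤ y) (hs : 0 ≤ s) (A X : ℂ) :
    2 * (star X * (A * y)).re - (α + s * y) * ‖X‖ ^ 2 ≤ ‖A‖ ^ 2 * (y ^ 2 / (α + s * y)) := by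
  have hd : 0 < α + s * y := by positivity
  have h1 : (star X * (A * y)).re ≤ ‖X‖ * (‖A‖ * y) := by
    refine (Complex.re_le_norm _).trans (le_of_eq ?_)
    rw [norm_mul, norm_mul, norm_star, Complex.norm_real, Real.norm_eq_abs, abs_of_nonneg hy]
  have h2 : 0 ≤ (‖A‖ * y - (α + s * y) * ‖X‖) ^ 2 / (α + s * y) := by positivity
  have h3 : (‖A‖ * y - (α + s * y) * ‖X‖) ^ 2 / (α + s * y) =
      ‖A‖ ^ 2 * (y ^ 2 / (α + s * y)) - 2 * (‖X‖ * (‖A‖ * y)) + (α + s * y) * ‖X‖ ^ 2 := by
    field_simp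
    ring
  linarith

section core

variable {U V W : Matrix (Fin N) (Fin N) ℂ} {α y : Fin N → ℝ}

/-- the pinched density `q_i = Y_ii` in the basis `V` -/
noncomputable def qd (V : Matrix (Fin N) (Fin N) ℂ) (W : Matrix (Fin N) (Fin N) ℂ) (y : Fin N → ℝ)
    (i : Fin N) : ℝ := ∑ l, y l * ‖(star V * W) i l‖ ^ 2

theorem qd_eq (i : Fin N) :
    (qd V W y i : ℂ) = (star V * (W * diagonal (fun i => (y i : ℂ)) * star W) * V) i i := by
  have h1 : star V * (W * diagonal (fun i => (y i : ℂ)) * star W) * V =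
      (star V * W) * diagonal (fun i => (y i : ℂ)) * star (star V * W) := by
    rw [star_mul, star_star]
    simp only [Matrix.mul_assoc]
  rw [h1, Matrix.mul_apply, qd]
  push_cast
  refine Finset.sum_congr rfl fun l _ => ?_
  rw [mul_diagonal, star_apply]
  rw [← Complex.ofReal_pow, ← Complex.normSq_eq_norm_sq, Complex.normSq_eq_conj_mul_self]
  simp only [RCLike.star_def]
  ring


theorem mixed_inner (hU : U * star U = 1) (hW : W * star W = 1)
    {X : Matrix (Fin N) (Fin N) ℂ} (hXs : star X = X) :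
    ∑ k, ∑ l, (star ((star U * X * W) k l) * ((star U * W) k l * y l)).re =
      ((X * (W * diagonal (fun i => (y i : ℂ)) * star W)).trace).re := by
  have hWW : star W * W = 1 := by rw [mul_eq_one_comm]; exact hW
  set Y : Matrix (Fin N) (Fin N) ℂ := W * diagonal (fun i => (y i : ℂ)) * star W with hY
  have hP : ∀ k l, (star U * W) k l * (y l : ℂ) = (star U * Y * W) k l := by
    intro k l
    have : star U * Y * W = star U * W * diagonal (fun i => (y i : ℂ)) := by
      rw [hY]
      simp only [Matrix.mul_assoc, hWW, Matrix.mul_one]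
    rw [this, mul_diagonal]
  simp only [hP]
  rw [sum_inner]
  congr 1
  have : star (star U * X * W) * (star U * Y * W) = star W * (X * Y * W) := by
    rw [star_mul, star_mul, star_star, hXs]
    simp only [Matrix.mul_assoc]
    rw [← Matrix.mul_assoc U (star U), hU, Matrix.one_mul]
  rw [this, trace_mul_comm, Matrix.mul_assoc, hW, Matrix.mul_one]

theorem mixed_row (hW : W * star W = 1)
    {X : Matrix (Fin N) (Fin N) ℂ} (hXs : star X = X) :
    ∑ k, ∑ l, α k * ‖(star U * X * W) k l‖ ^ 2 =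
      ((X * (U * diagonal (fun i => (α i : ℂ)) * star U) * X).trace).re := by
  rw [sum_row_weight]
  congr 1
  have : star (star U * X * W) * diagonal (fun i => (α i : ℂ)) * (star U * X * W) =
      star W * (X * (U * diagonal (fun i => (α i : ℂ)) * star U) * X * W) := by
    rw [star_mul, star_mul, star_star, hXs]
    simp only [Matrix.mul_assoc]
  rw [this, trace_mul_comm, Matrix.mul_assoc, hW, Matrix.mul_one]

theorem mixed_col (hU : U * star U = 1)
    {X : Matrix (Fin N) (Fin N) ℂ} (hXs : star X = X) :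
    ∑ k, ∑ l, y l * ‖(star U * X * W) k l‖ ^ 2 =
      ((X * (W * diagonal (fun i => (y i : ℂ)) * star W) * X).trace).re := by
  rw [sum_col_weight]
  congr 1
  have : star U * X * W * diagonal (fun i => (y i : ℂ)) * star (star U * X * W) =
      star U * (X * (W * diagonal (fun i => (y i : ℂ)) * star W) * X * U) := by
    rw [star_mul, star_mul, star_star, hXs]
    simp only [Matrix.mul_assoc]
  rw [this, trace_mul_comm, Matrix.mul_assoc, hU, Matrix.mul_one]

theorem diag_trace1 (x : Fin N → ℝ) (M : Matrix (Fin N) (Fin N) ℂ) :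
    (V * diagonal (fun i => (x i : ℂ)) * star V * M).trace =
      ∑ i, (x i : ℂ) * (star V * M * V) i i := by
  have : (V * diagonal (fun i => (x i : ℂ)) * star V * M).trace =
      (diagonal (fun i => (x i : ℂ)) * (star V * M * V)).trace := by
    rw [Matrix.mul_assoc, Matrix.mul_assoc, trace_mul_comm]
    simp only [Matrix.mul_assoc]
  rw [this, trace]
  refine Finset.sum_congr rfl fun i _ => ?_
  rw [diag_apply, diagonal_mul]

theorem diag_trace2 (hV : V * star V = 1) (x : Fin N → ℝ) (M : Matrix (Fin N) (Fin N) ℂ) :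
    (V * diagonal (fun i => (x i : ℂ)) * star V * M *
      (V * diagonal (fun i => (x i : ℂ)) * star V)).trace =
      ∑ i, (x i : ℂ) ^ 2 * (star V * M * V) i i := by
  have hVV : star V * V = 1 := by rw [mul_eq_one_comm]; exact hV
  have hXX : V * diagonal (fun i => (x i : ℂ)) * star V *
      (V * diagonal (fun i => (x i : ℂ)) * star V) =
      V * diagonal (fun i => (((x i) ^ 2 : ℝ) : ℂ)) * star V := by
    have : V * diagonal (fun i => (x i : ℂ)) * star V * (V * diagonal (fun i => (x i : ℂ)) * star V)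
        = V * (diagonal (fun i => (x i : ℂ)) * ((star V * V) * diagonal (fun i => (x i : ℂ)))) *
          star V := by
      simp only [Matrix.mul_assoc]
    rw [this, hVV, Matrix.one_mul, diagonal_mul_diagonal]
    congr 3
    ext i
    push_cast
    ring
  rw [trace_mul_comm, ← Matrix.mul_assoc, hXX, diag_trace1]
  push_cast
  rfl

/-- The resolvent form of the monotonicity of the relative entropy under pinching. -/
theorem pinch (hU : U * star U = 1) (hW : W * star W = 1) (hV : V * star V = 1)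
    (hα : ∀ i, 0 < α i) (hy : ∀ i, 0 ≤ y i)
    (hp : ∀ i, 0 < qd V U α i) {s : ℝ} (hs : 0 ≤ s) :
    ∑ i, qd V W y i ^ 2 / (qd V U α i + s * qd V W y i) ≤
      ∑ k, ∑ l, ‖(star U * W) k l‖ ^ 2 * (y l ^ 2 / (α k + s * y l)) := by
  set p := qd V U α with hpd
  set q := qd V W y with hqd
  have hq0 : ∀ i, 0 ≤ q i := fun i => Finset.sum_nonneg fun l _ => mul_nonneg (hy l) (by positivity)
  set x : Fin N → ℝ := fun i => q i / (p i + s * q i) with hx
  set X : Matrix (Fin N) (Fin N) ℂ := V * diagonal (fun i => (x i : ℂ)) * star V with hX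
  have hXs : star X = X := by
    rw [hX, star_mul, star_mul, star_star, star_eq_conjTranspose (diagonal _),
      diagonal_conjTranspose, Matrix.mul_assoc]
    congr 3
    ext i
    simp
  have hkey : ∑ k, ∑ l, (2 * (star ((star U * X * W) k l) * ((star U * W) k l * y l)).re -
      (α k + s * y l) * ‖(star U * X * W) k l‖ ^ 2) ≤
      ∑ k, ∑ l, ‖(star U * W) k l‖ ^ 2 * (y l ^ 2 / (α k + s * y l)) :=
    Finset.sum_le_sum fun k _ => Finset.sum_le_sum fun l _ =>
      scalar_quad (α k) (y l) s (hα k) (hy l) hs _ _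
  refine le_trans (le_of_eq ?_) hkey
  have g1 : ∑ k, ∑ l, (2 * (star ((star U * X * W) k l) * ((star U * W) k l * y l)).re -
      (α k + s * y l) * ‖(star U * X * W) k l‖ ^ 2) =
      2 * (∑ k, ∑ l, (star ((star U * X * W) k l) * ((star U * W) k l * y l)).re) -
        (∑ k, ∑ l, α k * ‖(star U * X * W) k l‖ ^ 2) -
        s * ∑ k, ∑ l, y l * ‖(star U * X * W) k l‖ ^ 2 := by
    simp only [Finset.mul_sum, ← Finset.sum_sub_distrib]
    refine Finset.sum_congr rfl fun k _ => Finset.sum_congr rfl fun l _ => ?_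
    ring
  rw [g1, mixed_inner hU hW hXs, mixed_row hW hXs, mixed_col hU hXs, hX, diag_trace1,
    diag_trace2 hV, diag_trace2 hV]
  simp only [← qd_eq, Complex.re_sum, ← Complex.ofReal_pow, ← Complex.ofReal_mul,
    Complex.ofReal_re]
  rw [← hpd, ← hqd]
  simp only [Finset.mul_sum, ← Finset.sum_sub_distrib]
  refine Finset.sum_congr rfl fun i _ => ?_
  have hd : 0 < p i + s * q i := by
    have := hp i
    have := hq0 i
    positivity
  have hd' := hd.ne'
  simp only [hx]
  clear_value p q
  obtain ⟨D, hD⟩ : ∃ D, D = p i + s * q i := ⟨_, rfl⟩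
  rw [← hD] at hd' ⊢
  have hP : p i = D - s * q i := by rw [hD]; ring
  rw [hP]
  field_simp
  ring

/-- Monotonicity of the relative entropy under pinching, truncated form. -/
theorem pinch_log (hU : U * star U = 1) (hW : W * star W = 1) (hV : V * star V = 1)
    (hα : ∀ i, 0 < α i) (hy : ∀ i, 0 ≤ y i)
    (hp : ∀ i, 0 < qd V U α i) {S : ℝ} (hS : 0 ≤ S) :
    ∑ i, qd V W y i * (Real.log (qd V U α i + S * qd V W y i) - Real.log (qd V U α i)) ≤
      ∑ k, ∑ l, ‖(star U * W) k l‖ ^ 2 *
        (y l * (Real.log (α k + S * y l) - Real.log (α k))) := by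
  set p := qd V U α with hpd
  set q := qd V W y with hqd
  have hq0 : ∀ i, 0 ≤ q i := fun i => Finset.sum_nonneg fun l _ => mul_nonneg (hy l) (by positivity)
  set F : ℝ → ℝ := fun s => (∑ k, ∑ l, ‖(star U * W) k l‖ ^ 2 *
        (y l * (Real.log (α k + s * y l) - Real.log (α k)))) -
    ∑ i, q i * (Real.log (p i + s * q i) - Real.log (p i)) with hF
  have hd : ∀ s ∈ Set.Ici (0 : ℝ), HasDerivAt F ((∑ k, ∑ l, ‖(star U * W) k l‖ ^ 2 *
      (y l ^ 2 / (α k + s * y l))) - ∑ i, q i ^ 2 / (p i + s * q i)) s := by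
    intro s hs
    have hs : 0 ≤ s := hs
    have hlog : ∀ A B : ℝ, 0 < A → 0 ≤ B →
        HasDerivAt (fun s => B * (Real.log (A + s * B) - Real.log A)) (B ^ 2 / (A + s * B)) s := by
      intro A B hA hB
      have h1 : HasDerivAt (fun s : ℝ => A + s * B) B s := by
        simpa using ((hasDerivAt_id s).mul_const B).const_add A
      have h2 := ((h1.log (by positivity)).sub_const (Real.log A)).const_mul B
      refine h2.congr_deriv ?_
      ring
    exact (HasDerivAt.fun_sum fun k _ => HasDerivAt.fun_sum fun l _ =>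
      (hlog (α k) (y l) (hα k) (hy l)).const_mul _).sub
      (HasDerivAt.fun_sum fun i _ => hlog (p i) (q i) (hp i) (hq0 i))
  have hmono : MonotoneOn F (Set.Ici 0) := by
    refine monotoneOn_of_deriv_nonneg (convex_Ici 0)
      (fun s hs => (hd s hs).continuousAt.continuousWithinAt)
      (fun s hs => (hd s (interior_subset hs)).differentiableAt.differentiableWithinAt) ?_
    intro s hs
    have hs' : s ∈ Set.Ici (0 : ℝ) := interior_subset hs
    rw [(hd s hs').deriv]
    exact sub_nonneg.mpr (pinch hU hW hV hα hy hp hs')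
  have h0 : F 0 = 0 := by simp [hF]
  have h1 := hmono (Set.mem_Ici.mpr le_rfl) (Set.mem_Ici.mpr hS) hS
  rw [h0] at h1
  exact sub_nonneg.mp h1

theorem tendsto_log_trunc {q p : ℝ} (hq : 0 ≤ q) (hp : 0 < p) :
    Tendsto (fun S : ℝ => q * (Real.log (p + S * q) - Real.log p) - Real.log S * q) atTop
      (𝓝 (q * (Real.log q - Real.log p))) := by
  rcases hq.eq_or_lt with h0 | h0
  · rw [← h0]
    simp
  · have h1 : Tendsto (fun S : ℝ => p / S + q) atTop (𝓝 (0 + q)) :=
      (tendsto_const_nhds.div_atTop tendsto_id).add_const q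
    rw [zero_add] at h1
    have h2 : Tendsto (fun S : ℝ => q * (Real.log (p / S + q) - Real.log p)) atTop
        (𝓝 (q * (Real.log q - Real.log p))) :=
      ((h1.log h0.ne').sub_const _).const_mul q
    refine h2.congr' ?_
    filter_upwards [eventually_gt_atTop 0] with S hS
    have h3 : p + S * q = S * (p / S + q) := by
      field_simp
    rw [h3, Real.log_mul hS.ne' (by positivity)]
    ring

theorem sum_norm_unitary {A : Matrix (Fin N) (Fin N) ℂ} (hA : star A * A = 1) (l : Fin N) :
    ∑ k, ‖A k l‖ ^ 2 = 1 := by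
  have h1 := congrFun (congrFun hA l) l
  rw [Matrix.mul_apply, one_apply_eq] at h1
  have h2 : ((∑ k, ‖A k l‖ ^ 2 : ℝ) : ℂ) = 1 := by
    rw [← h1]
    push_cast
    refine Finset.sum_congr rfl fun k _ => ?_
    rw [star_apply, ← Complex.ofReal_pow, ← Complex.normSq_eq_norm_sq,
      Complex.normSq_eq_conj_mul_self]
    rfl
  exact_mod_cast h2

theorem star_mul_unitary (hU : U * star U = 1) (hW : W * star W = 1) :
    star (star U * W) * (star U * W) = 1 := by
  have hWW : star W * W = 1 := by rw [mul_eq_one_comm]; exact hW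
  rw [star_mul, star_star]
  have : star W * U * (star U * W) = star W * (U * star U * W) := by
    simp only [Matrix.mul_assoc]
  rw [this, hU, Matrix.one_mul, hWW]

theorem sum_qd (hV : V * star V = 1) (hW : W * star W = 1) : ∑ i, qd V W y i = ∑ l, y l := by
  unfold qd
  rw [Finset.sum_comm]
  refine Finset.sum_congr rfl fun l _ => ?_
  rw [← Finset.mul_sum, sum_norm_unitary (star_mul_unitary hV hW) l, mul_one]

/-- Monotonicity of the relative entropy under pinching. -/
theorem pinch_entropy (hU : U * star U = 1) (hW : W * star W = 1) (hV : V * star V = 1)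
    (hα : ∀ i, 0 < α i) (hy : ∀ i, 0 ≤ y i) (hp : ∀ i, 0 < qd V U α i) :
    ∑ i, qd V W y i * (Real.log (qd V W y i) - Real.log (qd V U α i)) ≤
      ∑ k, ∑ l, ‖(star U * W) k l‖ ^ 2 * (y l * (Real.log (y l) - Real.log (α k))) := by
  have hq0 : ∀ i, 0 ≤ qd V W y i :=
    fun i => Finset.sum_nonneg fun l _ => mul_nonneg (hy l) (by positivity)
  have h1 : Tendsto (fun S : ℝ => ∑ i, (qd V W y i * (Real.log (qd V U α i + S * qd V W y i) -
      Real.log (qd V U α i)) - Real.log S * qd V W y i)) atTop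
      (𝓝 (∑ i, qd V W y i * (Real.log (qd V W y i) - Real.log (qd V U α i)))) :=
    tendsto_finsetSum _ fun i _ => tendsto_log_trunc (hq0 i) (hp i)
  have h2 : Tendsto (fun S : ℝ => ∑ k, ∑ l, ‖(star U * W) k l‖ ^ 2 *
      (y l * (Real.log (α k + S * y l) - Real.log (α k)) - Real.log S * y l)) atTop
      (𝓝 (∑ k, ∑ l, ‖(star U * W) k l‖ ^ 2 * (y l * (Real.log (y l) - Real.log (α k))))) :=
    tendsto_finsetSum _ fun k _ => tendsto_finsetSum _ fun l _ =>
      (tendsto_log_trunc (hy l) (hα k)).const_mul _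
  refine le_of_tendsto_of_tendsto h1 h2 ?_
  filter_upwards [eventually_ge_atTop 0] with S hS
  have h3 := pinch_log hU hW hV hα hy hp hS
  have h4 : ∑ k, ∑ l, ‖(star U * W) k l‖ ^ 2 *
      (y l * (Real.log (α k + S * y l) - Real.log (α k)) - Real.log S * y l) =
      (∑ k, ∑ l, ‖(star U * W) k l‖ ^ 2 *
        (y l * (Real.log (α k + S * y l) - Real.log (α k)))) - Real.log S * ∑ l, y l := by
    have h5 : ∑ k, ∑ l, ‖(star U * W) k l‖ ^ 2 * (Real.log S * y l) = Real.log S * ∑ l, y l := by
      rw [Finset.sum_comm, Finset.mul_sum]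
      refine Finset.sum_congr rfl fun l _ => ?_
      rw [← Finset.sum_mul, sum_norm_unitary (star_mul_unitary hU hW) l, one_mul]
    rw [← h5, ← Finset.sum_sub_distrib]
    refine Finset.sum_congr rfl fun k _ => ?_
    rw [← Finset.sum_sub_distrib]
    refine Finset.sum_congr rfl fun l _ => ?_
    ring
  rw [h4, Finset.sum_sub_distrib, ← Finset.mul_sum, sum_qd hV hW]
  linarith

theorem qd_pos (hU : U * star U = 1) (hV : V * star V = 1) (hα : ∀ i, 0 < α i) (i : Fin N) :
    0 < qd V U α i := by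
  have h1 : star (star U * V) * (star U * V) = 1 := star_mul_unitary hU hV
  have h2 := sum_norm_unitary h1 i
  have h3 : ∀ l, ‖(star V * U) i l‖ = ‖(star U * V) l i‖ := by
    intro l
    have : (star V * U) i l = star ((star U * V) l i) := by
      rw [← star_apply, star_mul, star_star]
    rw [this, norm_star]
  by_contra hneg
  have h4 : qd V U α i = 0 := le_antisymm (not_lt.mp hneg)
    (Finset.sum_nonneg fun l _ => mul_nonneg (hα l).le (by positivity))
  unfold qd at h4
  rw [Finset.sum_eq_zero_iff_of_nonneg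
    (fun l _ => mul_nonneg (hα l).le (by positivity))] at h4
  have h5 : ∀ l, ‖(star U * V) l i‖ ^ 2 = 0 := by
    intro l
    have := h4 l (Finset.mem_univ l)
    rw [h3 l] at this
    rcases mul_eq_zero.mp this with h | h
    · exact absurd h (hα l).ne'
    · exact h
  simp [h5] at h2

/-- The core inequality in terms of spectral data. -/
theorem gibbs_core {β : Fin N → ℝ} (hU : U * star U = 1) (hW : W * star W = 1)
    (hV : V * star V = 1) (hα : ∀ i, 0 < α i) (hβ : ∀ i, 0 < β i) (hy : ∀ i, 0 ≤ y i) :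
    (∑ k, ∑ l, ‖(star U * W) k l‖ ^ 2 * (y l * Real.log (α k))) +
      (∑ i, ∑ l, ‖(star V * W) i l‖ ^ 2 * (y l * Real.log (β i))) -
      (∑ l, y l * Real.log (y l)) + ∑ l, y l ≤
      ∑ i, ∑ k, ‖(star V * U) i k‖ ^ 2 * (β i * α k) := by
  have hp := qd_pos hU hV hα
  have hq0 : ∀ i, 0 ≤ qd V W y i :=
    fun i => Finset.sum_nonneg fun l _ => mul_nonneg (hy l) (by positivity)
  have h1 := pinch_entropy hU hW hV hα hy hp
  have h2 : ∑ k, ∑ l, ‖(star U * W) k l‖ ^ 2 * (y l * (Real.log (y l) - Real.log (α k))) =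
      (∑ l, y l * Real.log (y l)) -
        ∑ k, ∑ l, ‖(star U * W) k l‖ ^ 2 * (y l * Real.log (α k)) := by
    have h5 : ∑ k, ∑ l, ‖(star U * W) k l‖ ^ 2 * (y l * Real.log (y l)) =
        ∑ l, y l * Real.log (y l) := by
      rw [Finset.sum_comm]
      refine Finset.sum_congr rfl fun l _ => ?_
      rw [← Finset.sum_mul, sum_norm_unitary (star_mul_unitary hU hW) l, one_mul]
    rw [← h5, ← Finset.sum_sub_distrib]
    refine Finset.sum_congr rfl fun k _ => ?_
    rw [← Finset.sum_sub_distrib]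
    refine Finset.sum_congr rfl fun l _ => ?_
    ring
  have h3 : ∑ i, ∑ l, ‖(star V * W) i l‖ ^ 2 * (y l * Real.log (β i)) =
      ∑ i, qd V W y i * Real.log (β i) := by
    refine Finset.sum_congr rfl fun i _ => ?_
    rw [qd, Finset.sum_mul]
    refine Finset.sum_congr rfl fun l _ => ?_
    ring
  have h4 : ∑ i, ∑ k, ‖(star V * U) i k‖ ^ 2 * (β i * α k) = ∑ i, β i * qd V U α i := by
    refine Finset.sum_congr rfl fun i _ => ?_
    rw [qd, Finset.mul_sum]
    refine Finset.sum_congr rfl fun l _ => ?_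
    ring
  have h5 : ∀ i, qd V W y i * Real.log (β i) + qd V W y i - β i * qd V U α i ≤
      qd V W y i * (Real.log (qd V W y i) - Real.log (qd V U α i)) := by
    intro i
    rcases (hq0 i).eq_or_lt with h0 | h0
    · rw [← h0]
      have := mul_pos (hβ i) (hp i)
      simp
      linarith
    · have h6 := Real.log_le_sub_one_of_pos (x := β i * qd V U α i / qd V W y i)
        (div_pos (mul_pos (hβ i) (hp i)) h0)
      rw [Real.log_div (mul_pos (hβ i) (hp i)).ne' h0.ne',
        Real.log_mul (hβ i).ne' (hp i).ne'] at h6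
      have h7 := mul_le_mul_of_nonneg_left h6 h0.le
      have h8 : qd V W y i * (β i * qd V U α i / qd V W y i - 1) =
          β i * qd V U α i - qd V W y i := by
        field_simp
      rw [h8] at h7
      linarith
  have h6 := Finset.sum_le_sum fun i (_ : i ∈ Finset.univ) => h5 i
  rw [Finset.sum_sub_distrib, Finset.sum_add_distrib, sum_qd hV hW] at h6
  rw [h3, h4]
  rw [h2] at h1
  linarith

/-- `tr (U d U^* W e W^*) = ∑ |(U^*W)_kl|² d_k e_l` -/
theorem trace_two (d e : Fin N → ℝ) :
    (U * diagonal (fun i => (d i : ℂ)) * star U *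
      (W * diagonal (fun i => (e i : ℂ)) * star W)).trace =
      ((∑ k, ∑ l, ‖(star U * W) k l‖ ^ 2 * (e l * d k) : ℝ) : ℂ) := by
  rw [diag_trace1]
  push_cast
  refine Finset.sum_congr rfl fun k _ => ?_
  rw [← qd_eq, qd]
  push_cast
  rw [Finset.mul_sum]
  refine Finset.sum_congr rfl fun l _ => ?_
  ring

end core

theorem cfc_spec {A : Matrix (Fin N) (Fin N) ℂ} (hA : A.IsHermitian) (f : ℝ → ℝ) :
    cfc f A = (hA.eigenvectorUnitary : Matrix (Fin N) (Fin N) ℂ) *
      diagonal (fun i => (f (hA.eigenvalues i) : ℂ)) *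
      star (hA.eigenvectorUnitary : Matrix (Fin N) (Fin N) ℂ) := by
  rw [hA.cfc_eq, Matrix.IsHermitian.cfc, Unitary.conjStarAlgAut_apply]
  rfl

theorem spec {A : Matrix (Fin N) (Fin N) ℂ} (hA : A.IsHermitian) :
    A = (hA.eigenvectorUnitary : Matrix (Fin N) (Fin N) ℂ) *
      diagonal (fun i => (hA.eigenvalues i : ℂ)) *
      star (hA.eigenvectorUnitary : Matrix (Fin N) (Fin N) ℂ) := by
  have h := hA.spectral_theorem
  rw [Unitary.conjStarAlgAut_apply] at h
  exact h

/-- **Gibbs variational principle and Golden-Thompson inequality**, combined: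
`tr [Y (log a + log b) - Y log Y + Y] ≤ tr (a b)`. -/
theorem gibbs {a b Y : Matrix (Fin N) (Fin N) ℂ} (ha : a.PosDef) (hb : b.PosDef)
    (hY : Y.PosSemidef) :
    ((cfc Real.log a + cfc Real.log b) * Y).trace.re -
      (cfc (fun x => x * Real.log x) Y).trace.re + Y.trace.re ≤ (a * b).trace.re := by
  set U : Matrix (Fin N) (Fin N) ℂ := (ha.1.eigenvectorUnitary : Matrix (Fin N) (Fin N) ℂ)
  set V : Matrix (Fin N) (Fin N) ℂ := (hb.1.eigenvectorUnitary : Matrix (Fin N) (Fin N) ℂ)
  set W : Matrix (Fin N) (Fin N) ℂ := (hY.1.eigenvectorUnitary : Matrix (Fin N) (Fin N) ℂ)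
  have hU : U * star U = 1 := Unitary.coe_mul_star_self _
  have hV : V * star V = 1 := Unitary.coe_mul_star_self _
  have hW : W * star W = 1 := Unitary.coe_mul_star_self _
  have hWW : star W * W = 1 := Unitary.coe_star_mul_self _
  have h1 := gibbs_core (α := ha.1.eigenvalues) (β := hb.1.eigenvalues) (y := hY.1.eigenvalues)
    hU hW hV (fun i => ha.eigenvalues_pos i) (fun i => hb.eigenvalues_pos i)
    (fun i => hY.eigenvalues_nonneg i)
  have e1 : (cfc Real.log a * Y).trace.re = ∑ k, ∑ l, ‖(star U * W) k l‖ ^ 2 *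
      (hY.1.eigenvalues l * Real.log (ha.1.eigenvalues k)) := by
    conv_lhs => rw [cfc_spec ha.1, spec hY.1]
    rw [trace_two, Complex.ofReal_re]
  have e2 : (cfc Real.log b * Y).trace.re = ∑ k, ∑ l, ‖(star V * W) k l‖ ^ 2 *
      (hY.1.eigenvalues l * Real.log (hb.1.eigenvalues k)) := by
    conv_lhs => rw [cfc_spec hb.1, spec hY.1]
    rw [trace_two, Complex.ofReal_re]
  have e3 : (a * b).trace.re = ∑ i, ∑ k, ‖(star V * U) i k‖ ^ 2 *
      (hb.1.eigenvalues i * ha.1.eigenvalues k) := by
    rw [trace_mul_comm]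
    conv_lhs => rw [spec ha.1, spec hb.1]
    rw [trace_two, Complex.ofReal_re]
    refine Finset.sum_congr rfl fun i _ => Finset.sum_congr rfl fun k _ => ?_
    ring
  have e4 : ∀ f : ℝ → ℝ, (cfc f Y).trace.re = ∑ l, f (hY.1.eigenvalues l) := by
    intro f
    rw [cfc_spec hY.1, trace_mul_comm, ← Matrix.mul_assoc, hWW, Matrix.one_mul, trace_diagonal,
      Complex.re_sum]
    rfl
  have e5 : Y.trace.re = ∑ l, hY.1.eigenvalues l := by
    conv_lhs => rw [spec hY.1]
    rw [trace_mul_comm, ← Matrix.mul_assoc, hWW, Matrix.one_mul, trace_diagonal,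
      Complex.re_sum]
    rfl
  rw [Matrix.add_mul, trace_add, Complex.add_re, e1, e2, e3, e4, e5]
  exact h1

end Vale.Agent.P371.FE
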