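import Vale.Agent.P371.FE.Gibbs

/-!
# P371 (general exponent): trace functions along a path
-/

open Matrix Filter Topology
open scoped ComplexOrder ComplexConjugate

namespace Vale.Agent.P371.FE

variable {N : ℕ}

/-- square of the Frobenius norm -/
noncomputable def fro (A : Matrix (Fin N) (Fin N) ℂ) : ℝ := ∑ i, ∑ j, ‖A i j‖ ^ 2

theorem fro_nonneg (A : Matrix (Fin N) (Fin N) ℂ) : 0 ≤ fro A :=
  Finset.sum_nonneg fun _ _ => Finset.sum_nonneg fun _ _ => by positivity

theorem fro_eq_trace (A : Matrix (Fin N) (Fin N) ℂ) : fro A = ((star A * A).trace).re := by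
  have h := sum_row_weight A (fun _ => 1)
  simp only [one_mul, Complex.ofReal_one] at h
  rw [fro, h]
  have : diagonal (fun _ : Fin N => (1 : ℂ)) = 1 := rfl
  rw [this, Matrix.mul_one]

theorem fro_conj {U W : Matrix (Fin N) (Fin N) ℂ} (hU : U * star U = 1) (hW : W * star W = 1)
    (A : Matrix (Fin N) (Fin N) ℂ) : fro (star U * A * W) = fro A := by
  rw [fro_eq_trace, fro_eq_trace]
  congr 1
  have : star (star U * A * W) * (star U * A * W) = star W * (star A * A * W) := by
    rw [star_mul, star_mul, star_star]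
    simp only [Matrix.mul_assoc]
    rw [← Matrix.mul_assoc U (star U), hU, Matrix.one_mul]
  rw [this, trace_mul_comm, Matrix.mul_assoc, hW, Matrix.mul_one]

theorem entry_le_fro (A : Matrix (Fin N) (Fin N) ℂ) (i j : Fin N) : ‖A i j‖ ^ 2 ≤ fro A := by
  unfold fro
  refine le_trans ?_ (Finset.single_le_sum (f := fun i => ∑ j, ‖A i j‖ ^ 2)
    (fun i _ => Finset.sum_nonneg fun _ _ => by positivity) (Finset.mem_univ i))
  exact Finset.single_le_sum (f := fun j => ‖A i j‖ ^ 2) (fun _ _ => by positivity)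
    (Finset.mem_univ j)

section herm

variable {A B : Matrix (Fin N) (Fin N) ℂ}

theorem cfc_idm (hA : A.IsHermitian) : cfc (id : ℝ → ℝ) A = A := by
  rw [cfc_spec hA]
  exact (spec hA).symm

theorem cfc_mulm (hA : A.IsHermitian) (f g : ℝ → ℝ) :
    cfc f A * cfc g A = cfc (fun x => f x * g x) A := by
  rw [cfc_spec hA, cfc_spec hA, cfc_spec hA]
  have hUU : star (hA.eigenvectorUnitary : Matrix (Fin N) (Fin N) ℂ) *
    (hA.eigenvectorUnitary : Matrix (Fin N) (Fin N) ℂ) = 1 := Unitary.coe_star_mul_self _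
  have : ∀ (U D1 D2 : Matrix (Fin N) (Fin N) ℂ), star U * U = 1 →
      U * D1 * star U * (U * D2 * star U) = U * (D1 * D2) * star U := by
    intro U D1 D2 h
    have : U * D1 * star U * (U * D2 * star U) = U * D1 * ((star U * U) * D2) * star U := by
      simp only [Matrix.mul_assoc]
    rw [this, h, Matrix.one_mul]
    simp only [Matrix.mul_assoc]
  rw [this _ _ _ hUU, diagonal_mul_diagonal]
  congr 3
  ext i
  push_cast
  rfl

theorem cfc_mul_self (hA : A.IsHermitian) (f : ℝ → ℝ) :
    cfc f A * A = cfc (fun x => f x * x) A := by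
  have h := cfc_mulm hA f id
  rw [cfc_idm hA] at h
  exact h

/-- the overlaps of the eigenvectors -/
noncomputable def ov (hA : A.IsHermitian) (hB : B.IsHermitian) (k l : Fin N) : ℝ :=
  ‖(star (hA.eigenvectorUnitary : Matrix (Fin N) (Fin N) ℂ) *
    (hB.eigenvectorUnitary : Matrix (Fin N) (Fin N) ℂ)) k l‖ ^ 2

theorem ov_nonneg (hA : A.IsHermitian) (hB : B.IsHermitian) (k l : Fin N) : 0 ≤ ov hA hB k l := by
  unfold ov
  positivity

theorem sum_ov_left (hA : A.IsHermitian) (hB : B.IsHermitian) (l : Fin N) :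
    ∑ k, ov hA hB k l = 1 :=
  sum_norm_unitary (star_mul_unitary (Unitary.coe_mul_star_self _) (Unitary.coe_mul_star_self _)) l

theorem ov_comm (hA : A.IsHermitian) (hB : B.IsHermitian) (k l : Fin N) :
    ov hA hB k l = ov hB hA l k := by
  unfold ov
  have : (star (hA.eigenvectorUnitary : Matrix (Fin N) (Fin N) ℂ) *
    (hB.eigenvectorUnitary : Matrix (Fin N) (Fin N) ℂ)) k l =
      star ((star (hB.eigenvectorUnitary : Matrix (Fin N) (Fin N) ℂ) *
    (hA.eigenvectorUnitary : Matrix (Fin N) (Fin N) ℂ)) l k) := by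
    rw [← star_apply, star_mul, star_star]
  rw [this, norm_star]

theorem sum_ov_right (hA : A.IsHermitian) (hB : B.IsHermitian) (k : Fin N) :
    ∑ l, ov hA hB k l = 1 := by
  simp only [ov_comm hA hB]
  exact sum_ov_left hB hA k

theorem trace_cfc_mul_cfc (hA : A.IsHermitian) (hB : B.IsHermitian) (f g : ℝ → ℝ) :
    (cfc f A * cfc g B).trace =
      ((∑ k, ∑ l, ov hA hB k l * (f (hA.eigenvalues k) * g (hB.eigenvalues l)) : ℝ) : ℂ) := by
  rw [cfc_spec hA, cfc_spec hB, trace_two]
  congr 1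
  refine Finset.sum_congr rfl fun k _ => Finset.sum_congr rfl fun l _ => ?_
  unfold ov
  ring

theorem trace_cfc_mul (hA : A.IsHermitian) (hB : B.IsHermitian) (f : ℝ → ℝ) :
    (cfc f A * B).trace =
      ((∑ k, ∑ l, ov hA hB k l * (f (hA.eigenvalues k) * hB.eigenvalues l) : ℝ) : ℂ) := by
  have h := trace_cfc_mul_cfc hA hB f id
  rw [cfc_idm hB] at h
  exact h

theorem trace_cfc (hA : A.IsHermitian) (f : ℝ → ℝ) :
    (cfc f A).trace = ((∑ k, f (hA.eigenvalues k) : ℝ) : ℂ) := by
  have hWW : star (hA.eigenvectorUnitary : Matrix (Fin N) (Fin N) ℂ) *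
    (hA.eigenvectorUnitary : Matrix (Fin N) (Fin N) ℂ) = 1 := Unitary.coe_star_mul_self _
  rw [cfc_spec hA, trace_mul_comm, ← Matrix.mul_assoc, hWW, Matrix.one_mul, trace_diagonal]
  push_cast
  rfl

theorem fro_cfc_sub (hA : A.IsHermitian) (hB : B.IsHermitian) (f g : ℝ → ℝ) :
    fro (cfc f A - cfc g B) =
      ∑ k, ∑ l, ov hA hB k l * (f (hA.eigenvalues k) - g (hB.eigenvalues l)) ^ 2 := by
  set U : Matrix (Fin N) (Fin N) ℂ := (hA.eigenvectorUnitary : Matrix (Fin N) (Fin N) ℂ) with hU'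
  set W : Matrix (Fin N) (Fin N) ℂ := (hB.eigenvectorUnitary : Matrix (Fin N) (Fin N) ℂ) with hW'
  have hU : U * star U = 1 := Unitary.coe_mul_star_self _
  have hW : W * star W = 1 := Unitary.coe_mul_star_self _
  have hUU : star U * U = 1 := Unitary.coe_star_mul_self _
  have hWW : star W * W = 1 := Unitary.coe_star_mul_self _
  rw [← fro_conj hU hW, cfc_spec hA, cfc_spec hB, ← hU', ← hW']
  have h1 : star U * (U * diagonal (fun i => (f (hA.eigenvalues i) : ℂ)) * star U -
      W * diagonal (fun i => (g (hB.eigenvalues i) : ℂ)) * star W) * W =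
      diagonal (fun i => (f (hA.eigenvalues i) : ℂ)) * (star U * W) -
        (star U * W) * diagonal (fun i => (g (hB.eigenvalues i) : ℂ)) := by
    have e1 : star U * (U * diagonal (fun i => (f (hA.eigenvalues i) : ℂ)) * star U) * W =
        (star U * U) * (diagonal (fun i => (f (hA.eigenvalues i) : ℂ)) * (star U * W)) := by
      simp only [Matrix.mul_assoc]
    have e2 : star U * (W * diagonal (fun i => (g (hB.eigenvalues i) : ℂ)) * star W) * W =
        (star U * W) * (diagonal (fun i => (g (hB.eigenvalues i) : ℂ)) * (star W * W)) := by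
      simp only [Matrix.mul_assoc]
    rw [Matrix.mul_sub, Matrix.sub_mul, e1, e2, hUU, hWW, Matrix.one_mul, Matrix.mul_one]
  rw [h1, fro]
  refine Finset.sum_congr rfl fun k _ => Finset.sum_congr rfl fun l _ => ?_
  rw [Matrix.sub_apply, diagonal_mul, mul_diagonal]
  have h2 : (f (hA.eigenvalues k) : ℂ) * (star U * W) k l -
      (star U * W) k l * (g (hB.eigenvalues l) : ℂ) =
      ((f (hA.eigenvalues k) - g (hB.eigenvalues l) : ℝ) : ℂ) * (star U * W) k l := by
    push_cast
    ring
  rw [h2, norm_mul, mul_pow, Complex.norm_real, Real.norm_eq_abs, sq_abs, mul_comm]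
  rfl

theorem fro_sub (hA : A.IsHermitian) (hB : B.IsHermitian) :
    fro (A - B) = ∑ k, ∑ l, ov hA hB k l * (hA.eigenvalues k - hB.eigenvalues l) ^ 2 := by
  have h := fro_cfc_sub hA hB id id
  rw [cfc_idm hA, cfc_idm hB] at h
  exact h

/-- functional calculus is Lipschitz in the Frobenius norm -/
theorem fro_cfc_sub_le (hA : A.IsHermitian) (hB : B.IsHermitian) {f : ℝ → ℝ} {C : ℝ}
    (hf : ∀ k l, (f (hA.eigenvalues k) - f (hB.eigenvalues l)) ^ 2 ≤
      C * (hA.eigenvalues k - hB.eigenvalues l) ^ 2) :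
    fro (cfc f A - cfc f B) ≤ C * fro (A - B) := by
  rw [fro_cfc_sub hA hB, fro_sub hA hB, Finset.mul_sum]
  refine Finset.sum_le_sum fun k _ => ?_
  rw [Finset.mul_sum]
  refine Finset.sum_le_sum fun l _ => ?_
  have := mul_le_mul_of_nonneg_left (hf k l) (ov_nonneg hA hB k l)
  linarith

theorem fro_cfc (hA : A.IsHermitian) (f : ℝ → ℝ) :
    fro (cfc f A) = ∑ k, f (hA.eigenvalues k) ^ 2 := by
  have h := fro_cfc_sub hA hA f (fun _ => 0)
  rw [cfc_const_zero, sub_zero] at h
  rw [h]
  refine Finset.sum_congr rfl fun k _ => ?_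
  rw [← Finset.sum_mul, sum_ov_right, one_mul, sub_zero]

/-- Taylor expansion of a trace function -/
theorem trace_taylor (hA : A.IsHermitian) (hB : B.IsHermitian) (f f' : ℝ → ℝ) :
    (cfc f B).trace.re - (cfc f A).trace.re - ((cfc f' A) * (B - A)).trace.re =
      ∑ k, ∑ l, ov hA hB k l * (f (hB.eigenvalues l) - f (hA.eigenvalues k) -
        f' (hA.eigenvalues k) * (hB.eigenvalues l - hA.eigenvalues k)) := by
  have h1 : (cfc f B).trace.re = ∑ k, ∑ l, ov hA hB k l * f (hB.eigenvalues l) := by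
    rw [trace_cfc hB, Complex.ofReal_re, Finset.sum_comm]
    refine Finset.sum_congr rfl fun l _ => ?_
    rw [← Finset.sum_mul, sum_ov_left, one_mul]
  have h2 : (cfc f A).trace.re = ∑ k, ∑ l, ov hA hB k l * f (hA.eigenvalues k) := by
    rw [trace_cfc hA, Complex.ofReal_re]
    refine Finset.sum_congr rfl fun l _ => ?_
    rw [← Finset.sum_mul, sum_ov_right, one_mul]
  have h3 : ((cfc f' A) * B).trace.re =
      ∑ k, ∑ l, ov hA hB k l * (f' (hA.eigenvalues k) * hB.eigenvalues l) := by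
    rw [trace_cfc_mul hA hB, Complex.ofReal_re]
  have h4 : ((cfc f' A) * A).trace.re =
      ∑ k, ∑ l, ov hA hB k l * (f' (hA.eigenvalues k) * hA.eigenvalues k) := by
    rw [cfc_mul_self hA, trace_cfc hA, Complex.ofReal_re]
    refine Finset.sum_congr rfl fun l _ => ?_
    rw [← Finset.sum_mul, sum_ov_right, one_mul]
  rw [Matrix.mul_sub, trace_sub, Complex.sub_re, h1, h2, h3, h4]
  simp only [← Finset.sum_sub_distrib]
  refine Finset.sum_congr rfl fun k _ => Finset.sum_congr rfl fun l _ => ?_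
  ring

end herm

end Vale.Agent.P371.FE
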